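import Vale.Agent.P184.Defs

namespace Vale.Agent.P184

namespace Abv

open Polynomial

variable {Γ : Type*} [LinearOrderedCommGroupWithZero Γ]

/-- `a` is the rational power `q` of `γ` -/
def Rp (γ a : Γ) (q : ℝ) : Prop := ∃ (i : ℕ) (k : ℤ), 0 < i ∧ a ^ i = γ ^ k ∧ q = k / i

theorem Rp.anti {γ a b : Γ} {q r : ℝ} (h0 : 0 < γ) (h1 : γ < 1) (ha : Rp γ a q) (hb : Rp γ b r)
    (hab : a ≤ b) : r ≤ q := by
  obtain ⟨i, k, hi, e1, rfl⟩ := ha
  obtain ⟨j, l, hj, e2, rfl⟩ := hb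
  have h2 : a ^ (i * j) ≤ b ^ (j * i) := by
    rw [mul_comm j i]
    exact pow_le_pow_left₀ zero_le hab _
  rw [pow_mul, pow_mul, e1, e2, ← zpow_natCast, ← zpow_natCast, ← zpow_mul, ← zpow_mul,
    zpow_le_zpow_iff_right_of_lt_one₀ h0 h1] at h2
  rw [div_le_div_iff₀ (by exact_mod_cast hj) (by exact_mod_cast hi)]
  exact_mod_cast h2

theorem Rp.mul {γ a b : Γ} {q r : ℝ} (h0 : 0 < γ) (ha : Rp γ a q) (hb : Rp γ b r) :
    Rp γ (a * b) (q + r) := by
  obtain ⟨i, k, hi, e1, rfl⟩ := ha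
  obtain ⟨j, l, hj, e2, rfl⟩ := hb
  refine ⟨i * j, k * j + l * i, Nat.mul_pos hi hj, ?_, ?_⟩
  · rw [mul_pow, pow_mul, mul_comm i j, pow_mul, e1, e2, zpow_add₀ h0.ne', zpow_mul, zpow_mul,
      zpow_natCast, zpow_natCast]
  · have h1 : (i : ℝ) ≠ 0 := by exact_mod_cast hi.ne'
    have h2 : (j : ℝ) ≠ 0 := by exact_mod_cast hj.ne'
    push_cast
    field_simp

theorem of_val {L : Type*} [Field L] (w : Valuation L Γ) {μ : L} (h0 : μ ≠ 0) (h1 : w μ < 1)
    (h : ∀ x, x ≠ 0 → ∃ q, Rp (w μ) (w x) q) : ∃ v : AbsoluteValue L ℝ, v μ ≠ 1 := by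
  classical
  have g0 : 0 < w μ := w.pos_iff.2 h0
  choose! r hr using h
  have hle : ∀ x y, x ≠ 0 → y ≠ 0 → w x ≤ w y → Real.exp (-r x) ≤ Real.exp (-r y) :=
    fun x y hx hy hxy => Real.exp_le_exp.2 (neg_le_neg ((hr x hx).anti g0 h1 (hr y hy) hxy))
  have huniq : ∀ x q, x ≠ 0 → Rp (w μ) (w x) q → r x = q := fun x q hx hq =>
    le_antisymm (hq.anti g0 h1 (hr x hx) le_rfl) ((hr x hx).anti g0 h1 hq le_rfl)
  refine ⟨⟨⟨fun x => if x = 0 then 0 else Real.exp (-r x), fun x y => ?_⟩, fun x => ?_,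
    fun x => ?_, fun x y => ?_⟩, ?_⟩
  · by_cases hx : x = 0
    · simp [hx]
    by_cases hy : y = 0
    · simp [hy]
    have h2 := (hr x hx).mul g0 (hr y hy)
    rw [← map_mul] at h2
    rw [if_neg hx, if_neg hy, if_neg (mul_ne_zero hx hy), huniq _ _ (mul_ne_zero hx hy) h2,
      neg_add, Real.exp_add]
  · dsimp only
    split_ifs
    · exact le_rfl
    · exact (Real.exp_pos _).le
  · by_cases hx : x = 0
    · simp [hx]
    · simp [hx]
  · by_cases hx : x = 0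
    · simp [hx]
    by_cases hy : y = 0
    · simp [hy]
    dsimp only
    rw [if_neg hx, if_neg hy]
    have p1 := Real.exp_pos (-r x)
    have p2 := Real.exp_pos (-r y)
    split_ifs with hxy
    · linarith
    · rcases le_max_iff.1 (w.map_add x y) with h2 | h2
      · linarith [hle _ _ hxy hx h2]
      · linarith [hle _ _ hxy hy h2]
  · have h2 : r μ = 1 := huniq μ 1 h0 ⟨1, 1, one_pos, by simp, by simp⟩
    show (if μ = 0 then 0 else Real.exp (-r μ)) ≠ 1
    rw [if_neg h0, h2]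
    simp

theorem val_aeval {K L : Type*} [Field K] [Field L] [Algebra K L] (w : Valuation L Γ) {μ : L}
    (h0 : μ ≠ 0) (h1 : w μ < 1) (hK : ∀ c : K, c ≠ 0 → w (algebraMap K L c) = 1) {p : K[X]}
    (hp : p ≠ 0) : w (aeval μ p) = w μ ^ p.natTrailingDegree := by
  have g0 : 0 < w μ := w.pos_iff.2 h0
  have h2 : ∀ i ∈ p.support, w (algebraMap K L (p.coeff i) * μ ^ i) = w μ ^ i := fun i hi => by
    rw [map_mul, hK _ (mem_support_iff.1 hi), one_mul, map_pow]
  have h3 := natTrailingDegree_mem_support_of_nonzero hp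
  rw [aeval_def, eval₂_eq_sum, Polynomial.sum, w.map_sum_eq_of_lt h3, h2 _ h3]
  intro i hi
  obtain ⟨h4, h5⟩ := Finset.mem_sdiff.1 hi
  rw [h2 _ h3, h2 _ h4]
  refine pow_lt_pow_right_of_lt_one₀ g0 h1 (lt_of_le_of_ne (natTrailingDegree_le_of_mem_supp i h4) ?_)
  intro h6
  exact h5 (Finset.mem_singleton.2 h6.symm)

theorem val_alg {A L : Type*} [CommRing A] [Field L] [Algebra A L] (w : Valuation L Γ) {γ : Γ}
    (g0 : 0 < γ) (hA : ∀ a : A, a ≠ 0 → ∃ k : ℕ, w (algebraMap A L a) = γ ^ k) {x : L}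
    (hx : x ≠ 0) (h : IsAlgebraic A x) : ∃ q, Rp γ (w x) q := by
  obtain ⟨P, hP, hPx⟩ := h
  have x0 : w x ≠ 0 := (w.pos_iff.2 hx).ne'
  obtain ⟨j, hj, hmax⟩ := P.support.exists_max_image
    (fun i => w (algebraMap A L (P.coeff i) * x ^ i)) (support_nonempty.2 hP)
  obtain ⟨l, hl⟩ := hA _ (mem_support_iff.1 hj)
  have h1 : ∃ i ∈ P.support, i ≠ j ∧ w (algebraMap A L (P.coeff i) * x ^ i) =
      w (algebraMap A L (P.coeff j) * x ^ j) := by
    by_contra hc
    push Not at hc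
    have h2 := w.map_sum_eq_of_lt (f := fun i => algebraMap A L (P.coeff i) * x ^ i) hj
      fun i hi => lt_of_le_of_ne (hmax i (Finset.mem_sdiff.1 hi).1)
        (hc i (Finset.mem_sdiff.1 hi).1 fun h6 =>
          (Finset.mem_sdiff.1 hi).2 (Finset.mem_singleton.2 h6))
    rw [aeval_def, eval₂_eq_sum, Polynomial.sum] at hPx
    rw [hPx, map_zero, map_mul, hl, map_pow] at h2
    exact mul_ne_zero (pow_ne_zero _ g0.ne') (pow_ne_zero _ x0) h2.symm
  obtain ⟨i, hi, hij, h2⟩ := h1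
  obtain ⟨k, hk⟩ := hA _ (mem_support_iff.1 hi)
  rw [map_mul, map_mul, hk, hl, map_pow, map_pow] at h2
  have key : ∀ i j k l : ℕ, i < j → γ ^ k * w x ^ i = γ ^ l * w x ^ j → ∃ q, Rp γ (w x) q := by
    intro i j k l hij h
    obtain ⟨d, rfl⟩ := Nat.exists_eq_add_of_lt hij
    refine ⟨_, d + 1, (k : ℤ) - l, Nat.succ_pos d, ?_, rfl⟩
    rw [zpow_sub₀ g0.ne', zpow_natCast, zpow_natCast, eq_div_iff (pow_ne_zero _ g0.ne')]
    refine mul_right_cancel₀ (pow_ne_zero i x0) ?_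
    rw [h, add_assoc, pow_add (w x) i]
    simp only [mul_comm, mul_left_comm]
  rcases lt_or_gt_of_ne hij with h3 | h3
  · exact key _ _ _ _ h3 h2
  · exact key _ _ _ _ h3 h2.symm

theorem core {K L : Type*} [Field K] [Field L] [Algebra K L] {μ : L} (h : Transcendental K μ)
    (halg : ∀ x : L, IsAlgebraic (Algebra.adjoin K {μ}) x) :
    ∃ v : AbsoluteValue L ℝ, v μ ≠ 1 := by
  have h0 : μ ≠ 0 := by
    rintro rfl
    exact h isAlgebraic_zero
  have hμ : μ ∈ (Algebra.adjoin K {μ}).toSubring := Algebra.self_mem_adjoin_singleton K μ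
  have hrep : ∀ a ∈ Algebra.adjoin K {μ}, ∃ p : K[X], aeval μ p = a := fun a ha => by
    rwa [Algebra.adjoin_singleton_eq_range_aeval] at ha
  have hI : Ideal.span {(⟨μ, hμ⟩ : (Algebra.adjoin K {μ}).toSubring)} ≠ ⊤ := by
    rw [Ne, Ideal.span_singleton_eq_top, isUnit_iff_exists_inv]
    rintro ⟨⟨a, ha⟩, h1⟩
    obtain ⟨p, rfl⟩ := hrep a ha
    have h2 : μ * aeval μ p = 1 := congrArg Subtype.val h1
    have h3 := transcendental_iff.1 h (X * p - 1) (by simp [h2])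
    have h4 := congrArg (eval 0) h3
    simp at h4
  obtain ⟨V, hV, hV'⟩ := Ideal.image_subset_nonunits_valuationSubring _ hI
  have h1 : V.valuation μ < 1 := hV' ⟨_, Ideal.subset_span rfl, rfl⟩
  have hle : ∀ c : K, V.valuation (algebraMap K L c) ≤ 1 := fun c =>
    (V.valuation_le_one_iff _).2 (hV ((Algebra.adjoin K {μ}).algebraMap_mem c))
  have hK : ∀ c : K, c ≠ 0 → V.valuation (algebraMap K L c) = 1 := fun c hc => by
    refine le_antisymm (hle c) ?_
    have h2 := hle c⁻¹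
    rw [map_inv₀, map_inv₀] at h2
    exact (inv_le_one₀ (V.valuation.pos_iff.2 ((_root_.map_ne_zero _).2 hc))).1 h2
  refine of_val V.valuation h0 h1 fun x hx =>
    val_alg V.valuation (V.valuation.pos_iff.2 h0) (fun a ha => ?_) hx (halg x)
  obtain ⟨p, hp⟩ := hrep a.1 a.2
  have hp0 : p ≠ 0 := by
    rintro rfl
    exact ha (Subtype.ext (by simpa using hp.symm))
  exact ⟨_, by rw [← val_aeval V.valuation h0 h1 hK hp0, hp]; rfl⟩

end Abv

theorem Abv.alg {F L : Type*} [Field F] [Field L] [Algebra F L] (K : IntermediateField F L)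
    {μ : L} {t : Set L} (ht : ∀ y ∈ t, y = μ ∨ y ∈ K) {x : L}
    (h : IsAlgebraic (Algebra.adjoin F t) x) : IsAlgebraic (Algebra.adjoin K {μ}) x := by
  have h3 : Algebra.adjoin F t ≤ (Algebra.adjoin K {μ}).restrictScalars F := by
    refine Algebra.adjoin_le fun y hy => ?_
    rcases ht y hy with rfl | h1
    · exact Algebra.self_mem_adjoin_singleton K y
    · exact (Algebra.adjoin K {μ}).algebraMap_mem ⟨y, h1⟩
  exact h.tower_top_of_subalgebra_le h3

theorem exists_abv {F L : Type*} [Field F] [Field L] [Algebra F L] {μ : L}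
    (h : Transcendental F μ) : ∃ v : AbsoluteValue L ℝ, v μ ≠ 1 := by
  have h1 : AlgebraicIndepOn F id ({μ} : Set L) :=
    (algebraicIndependent_singleton_iff (⟨μ, rfl⟩ : ({μ} : Set L))).2 h
  obtain ⟨t, ht, hb⟩ := exists_isTranscendenceBasis_superset h1
  have hμ : μ ∈ t := ht rfl
  have h2 := IntermediateField.transcendental_adjoin_iff.2
    (hb.1.transcendental_adjoin (s := {⟨μ, hμ⟩}ᶜ) (i := ⟨μ, hμ⟩) (by simp))
  refine Abv.core h2 fun x => Abv.alg _ ?_ (hb.isAlgebraic.isAlgebraic x)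
  rintro _ ⟨y, rfl⟩
  by_cases hy : y = ⟨μ, hμ⟩
  · exact Or.inl (by rw [hy])
  · exact Or.inr (IntermediateField.subset_adjoin F _ ⟨y, hy, rfl⟩)

end Vale.Agent.P184
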