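import Vale.Agent.P184.Defs

namespace Vale.Agent.P184

namespace Num

open Polynomial

/-- the closed unit ball of an ultrametric field as a subring -/
def ball (K : Type*) [NormedField K] [IsUltrametricDist K] : Subring K where
  carrier := {x | ‖x‖ ≤ 1}
  mul_mem' := fun {a b} ha hb => by
    simp only [Set.mem_ofPred_eq] at *
    rw [norm_mul]
    exact mul_le_one₀ ha (norm_nonneg _) hb
  one_mem' := by simp
  add_mem' := fun {a b} ha hb => by
    simp only [Set.mem_ofPred_eq] at *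
    exact (IsUltrametricDist.norm_add_le_max a b).trans (max_le ha hb)
  zero_mem' := by simp
  neg_mem' := fun {a} ha => by simpa using ha

theorem rat_den (q : ℚ)
    (h : ∀ (p : ℕ) (_ : Fact p.Prime), ‖(q : PadicAlgCl p)‖ ≤ 1) : q.den = 1 := by
  by_contra hne
  obtain ⟨p, hp, hd⟩ := Nat.exists_prime_and_dvd hne
  have : Fact p.Prime := ⟨hp⟩
  have h1 := h p inferInstance
  have e1 : ∀ z : ℤ, ‖(z : PadicAlgCl p)‖ = ‖(z : ℚ_[p])‖ := fun z => by
    rw [← PadicAlgCl.norm_extends]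
    simp
  have hnum : ¬ (p : ℤ) ∣ q.num := by
    intro hn
    have h2 : p ∣ q.num.natAbs := Int.natCast_dvd.mp hn
    have := Nat.dvd_gcd h2 hd
    rw [q.reduced] at this
    exact hp.one_lt.ne' (Nat.dvd_one.mp this)
  have hn1 : ¬ ‖(q.num : ℚ_[p])‖ < 1 := by
    rw [Padic.norm_intCast_lt_one_iff]; exact hnum
  have hd1 : ‖((q.den : ℤ) : ℚ_[p])‖ < 1 := by
    rw [Padic.norm_intCast_lt_one_iff]; exact Int.natCast_dvd_natCast.mpr hd
  have key : (q.num : PadicAlgCl p) = (q : PadicAlgCl p) * ((q.den : ℤ) : PadicAlgCl p) := by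
    have := Rat.mul_den_eq_num q
    have h3 := congrArg (fun x : ℚ => (x : PadicAlgCl p)) this
    simp only [Rat.cast_mul, Rat.cast_natCast, Rat.cast_intCast] at h3
    rw [← h3]; simp
  apply hn1
  rw [← e1, key, norm_mul, e1]
  calc _ ≤ 1 * ‖((q.den : ℤ) : ℚ_[p])‖ := mul_le_mul_of_nonneg_right h1 (norm_nonneg _)
    _ < 1 := by rw [one_mul]; exact hd1

end Num

open Polynomial in
theorem exists_place {E : Type} [Field E] [NumberField E] {μ : E} (h : ¬ IsOfFinOrder μ) :
    (∃ σ : E →+* ℂ, ‖σ μ‖ ≠ 1) ∨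
      ∃ (p : ℕ) (_ : Fact p.Prime) (σ : E →+* PadicAlgCl p), ‖σ μ‖ ≠ 1 := by
  classical
  by_contra hcon
  push Not at hcon
  obtain ⟨h1, h2⟩ := hcon
  have hint : IsIntegral ℚ μ := Algebra.IsIntegral.isIntegral μ
  have hmon : (minpoly ℚ μ).Monic := minpoly.monic hint
  have hcoef : ∀ i, ((minpoly ℚ μ).coeff i).den = 1 := by
    intro i
    apply Num.rat_den
    intro p hp
    have hs : ((minpoly ℚ μ).map (algebraMap ℚ (PadicAlgCl p))).Splits := IsAlgClosed.splits _
    have hl := hs.mem_lift_of_roots_mem_range (hmon.map _) (Num.ball (PadicAlgCl p)).subtype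
      (fun a ha => by
        have : a ∈ (minpoly ℚ μ).rootSet (PadicAlgCl p) := by
          rw [Polynomial.rootSet_def, Finset.mem_coe, Multiset.mem_toFinset, Polynomial.aroots_def]
          exact ha
        rw [← NumberField.Embeddings.range_eval_eq_rootSet_minpoly E (PadicAlgCl p) μ] at this
        obtain ⟨σ, rfl⟩ := this
        exact ⟨⟨σ μ, (h2 p hp σ).le⟩, rfl⟩)
    rw [lifts_iff_coeff_lifts] at hl
    obtain ⟨⟨x, hx⟩, hx'⟩ := hl i
    rw [coeff_map] at hx'
    have : x = (((minpoly ℚ μ).coeff i : ℚ) : PadicAlgCl p) := by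
      simpa using hx'
    rw [← this]; exact hx
  have hZ : IsIntegral ℤ μ := by
    have hl : minpoly ℚ μ ∈ lifts (algebraMap ℤ ℚ) := by
      rw [lifts_iff_coeff_lifts]
      intro i
      exact ⟨((minpoly ℚ μ).coeff i).num, by
        simpa using (Rat.den_eq_one_iff _).mp (hcoef i)⟩
    obtain ⟨g, hg, -, hgm⟩ := lifts_and_natDegree_eq_and_monic hl hmon
    refine ⟨g, hgm, ?_⟩
    have := minpoly.aeval ℚ μ
    rw [← hg, aeval_map_algebraMap] at this
    exact this
  obtain ⟨n, hn, hpow⟩ := NumberField.Embeddings.pow_eq_one_of_norm_eq_one E ℂ hZ h1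
  exact h (isOfFinOrder_iff_pow_eq_one.mpr ⟨n, hn, hpow⟩)

end Vale.Agent.P184
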