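import Vale.Agent.P184.Ext
import Vale.Agent.P184.Num
import Vale.Agent.P184.Abv

namespace Vale.Agent.P184

namespace AbvC

/-- the norm pulled back along a field embedding -/
noncomputable def pull {M : Type} [NormedField M] (ψ : ℂ →+* M) : AbsoluteValue ℂ ℝ where
  toFun x := ‖ψ x‖
  map_mul' x y := by simp
  nonneg' x := norm_nonneg _
  eq_zero' x := by simp
  add_le' x y := by
    rw [map_add]
    exact norm_add_le _ _

theorem fin {E : Type} [Field E] [Countable E] [Algebra E ℂ] {M : Type} [NormedField M]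
    [IsAlgClosed M] (hM : Cardinal.continuum ≤ Cardinal.mk M) (σ : E →+* M) {x : E}
    (hx : ‖σ x‖ ≠ 1) : ∃ v : AbsoluteValue ℂ ℝ, v (algebraMap E ℂ x) ≠ 1 := by
  obtain ⟨ψ, hψ⟩ := exists_ext hM σ
  refine ⟨pull ψ, ?_⟩
  change ‖ψ (algebraMap E ℂ x)‖ ≠ 1
  rw [hψ]
  exact hx

theorem card_padic (p : ℕ) [Fact p.Prime] : Cardinal.continuum ≤ Cardinal.mk (PadicAlgCl p) :=
  (continuum_le_cardinal_of_nontriviallyNormedField ℚ_[p]).trans
    (Cardinal.mk_le_of_injective (algebraMap ℚ_[p] (PadicAlgCl p)).injective)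

end AbvC

theorem exists_abv_complex {μ : ℂ} (h : ¬ IsOfFinOrder μ) :
    ∃ v : AbsoluteValue ℂ ℝ, v μ ≠ 1 := by
  by_cases ht : Transcendental ℚ μ
  · exact exists_abv ht
  have ha : IsIntegral ℚ μ := by
    have : IsAlgebraic ℚ μ := by simpa [Transcendental] using ht
    exact this.isIntegral
  let E : IntermediateField ℚ ℂ := IntermediateField.adjoin ℚ {μ}
  haveI : FiniteDimensional ℚ E := IntermediateField.adjoin.finiteDimensional ha
  haveI : NumberField E := NumberField.mk
  haveI : Countable E := Finsupp.Countable.of_moduleFinite (R := ℚ)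
  let x : E := ⟨μ, IntermediateField.mem_adjoin_simple_self ℚ μ⟩
  have hx : algebraMap E ℂ x = μ := rfl
  have hfin : ¬ IsOfFinOrder x := by
    intro hx'
    apply h
    have := (algebraMap E ℂ).toMonoidHom.isOfFinOrder hx'
    exact this
  rcases exists_place hfin with ⟨σ, hσ⟩ | ⟨p, hp, σ, hσ⟩
  · exact hx ▸ AbvC.fin (M := ℂ) (by rw [Cardinal.mk_complex]) σ hσ
  · exact hx ▸ AbvC.fin (AbvC.card_padic p) σ hσ

end Vale.Agent.P184
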