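import Vale.Agent.P184.Defs

namespace Vale.Agent.P184

variable {G : Type*} [Group G]

theorem Amen.infconv {ι : Type*} [Nonempty ι] {l : G → ℝ} (hl : IsLength l) (f : ι → ℝ)
    (k : ι → G) (hb : ∀ i, -l (k i) ≤ f i) :
    ∃ P : G → ℝ, (∀ y a, |P (y * a) - P y| ≤ l a) ∧ ∀ (σ : ι ≃ ι) (c : G) (t : ℝ),
      (∀ i, k (σ i) = c * k i) → (∀ i, f (σ i) = t + f i) → ∀ y, P (c * y) = t + P y := by
  have hbd : ∀ y, BddBelow (Set.range fun i => f i + l ((k i)⁻¹ * y)) := by
    intro y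
    refine ⟨-l y, ?_⟩
    rintro _ ⟨i, rfl⟩
    have h1 := hl.1 ((k i)⁻¹ * y) y⁻¹
    rw [mul_inv_cancel_right, hl.2, hl.2] at h1
    have h2 := hb i
    dsimp only
    linarith
  have h1 : ∀ y a, (⨅ i, f i + l ((k i)⁻¹ * (y * a))) ≤ (⨅ i, f i + l ((k i)⁻¹ * y)) + l a := by
    intro y a
    rw [← sub_le_iff_le_add]
    refine le_ciInf fun i => ?_
    have a1 := ciInf_le (hbd (y * a)) i
    have a2 := hl.1 ((k i)⁻¹ * y) a
    rw [mul_assoc] at a2
    linarith
  refine ⟨fun y => ⨅ i, f i + l ((k i)⁻¹ * y), fun y a => ?_, fun σ c t hk hf y => ?_⟩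
  · have a1 := h1 y a
    have a2 := h1 (y * a) a⁻¹
    rw [mul_inv_cancel_right, hl.2] at a2
    rw [abs_le]
    constructor <;> linarith
  · have e : ∀ i, f (σ i) + l ((k (σ i))⁻¹ * (c * y)) = t + (f i + l ((k i)⁻¹ * y)) := by
      intro i
      rw [hk, hf, mul_inv_rev, mul_assoc, inv_mul_cancel_left, add_assoc]
    apply le_antisymm
    · rw [← sub_le_iff_le_add']
      refine le_ciInf fun i => ?_
      have a1 := ciInf_le (hbd (c * y)) (σ i)
      rw [e] at a1
      linarith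
    · refine le_ciInf fun i => ?_
      obtain ⟨j, rfl⟩ := σ.surjective i
      have a1 := ciInf_le (hbd y) j
      rw [e]
      linarith

theorem phi_of_hom {g : G} {l : G → ℝ} (hl : IsLength l)
    (φ : Subgroup.centralizer ({g} : Set G) → ℝ) (hφ : ∀ c d, φ (c * d) = φ c + φ d)
    (hb : ∀ c, |φ c| ≤ l c) (hg : φ ⟨g, by simp [Subgroup.mem_centralizer_iff]⟩ ≠ 0) :
    ∃ Φ, Phi g Φ := by
  obtain ⟨P, h1, h2⟩ := Amen.infconv hl φ Subtype.val fun c => (abs_le.1 (hb c)).1
  have h3 : ∀ c : Subgroup.centralizer ({g} : Set G), ∀ y, P (c * y) = φ c + P y :=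
    fun c => h2 (Equiv.mulLeft c) c (φ c) (fun _ => rfl) fun i => hφ c i
  refine ⟨P, fun c hc y => ?_, fun h => hg ?_, fun a => ⟨l a, fun y => h1 y a⟩⟩
  · have hc' : c ∈ Subgroup.centralizer ({g} : Set G) := by
      simp [Subgroup.mem_centralizer_iff, hc]
    have a1 := h3 ⟨c, hc'⟩ y
    have a2 := h3 ⟨c, hc'⟩ 1
    rw [mul_one] at a2
    dsimp only at a1 a2
    linarith
  · have a2 := h3 ⟨g, by simp [Subgroup.mem_centralizer_iff]⟩ 1
    rw [mul_one] at a2
    dsimp only at a2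
    linarith

theorem phi_of_amenable {g : G} (hu : Undistorted g)
    (ha : Amenable (Subgroup.centralizer ({g} : Set G))) : ∃ Φ, Phi g Φ := by
  obtain ⟨l, t, hl, ht, hn⟩ := hu
  obtain ⟨m, ma, ms, m0, m1, mi⟩ := ha
  obtain ⟨P, h1, h2⟩ := Amen.infconv hl (fun n : ℤ => t * n) (fun n => g ^ n) (fun n => by
    obtain ⟨k, rfl | rfl⟩ := Int.eq_nat_or_neg n
    · have a1 := hn k
      have a2 : 0 ≤ t * k := by positivity
      rw [zpow_natCast]
      push_cast
      linarith
    · have a1 := hn k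
      rw [zpow_neg, hl.2, zpow_natCast]
      push_cast
      linarith)
  have h3 : ∀ y, P (g * y) = t + P y := h2 (Equiv.addLeft 1) g t
    (fun i => by simp [zpow_add]) (fun i => by simp; ring)
  have hc : ∀ c : ℝ, m (fun _ => c) = c := by
    intro c
    have := ms c (fun _ => 1) ⟨1, fun _ => by simp⟩
    simpa [m1] using this
  have hle : ∀ (f f' : Subgroup.centralizer ({g} : Set G) → ℝ) (L : ℝ), Bdd f → Bdd f' →
      (∀ x, f x ≤ f' x + L) → m f ≤ m f' + L := by
    rintro f f' L ⟨A, hA⟩ ⟨B, hB⟩ h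
    have b1 : Bdd fun x => f' x + L - f x := ⟨B + |L| + A, fun x =>
      (abs_sub _ _).trans (add_le_add ((abs_add_le _ _).trans (add_le_add (hB x) le_rfl)) (hA x))⟩
    have a1 := m0 _ b1 fun x => by linarith [h x]
    have a2 := ma _ f b1 ⟨A, hA⟩
    have a3 := ma f' (fun _ => L) ⟨B, hB⟩ ⟨|L|, fun _ => le_rfl⟩
    have a4 : (fun x => f' x + L - f x) + f = f' + fun _ => L := by
      funext x
      simp
    rw [a4, a3, hc] at a2
    linarith
  let F : G → Subgroup.centralizer ({g} : Set G) → ℝ := fun y c => P (c * y) - P c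
  have hF : ∀ y, Bdd (F y) := fun y => ⟨l y, fun c => h1 c y⟩
  have h0 : m (F 1) = 0 := by
    rw [← hc 0]
    congr 1
    funext x
    simp [F]
  refine ⟨fun y => m (F y), fun c hc y => ?_, fun h => ?_, fun a => ⟨l a, fun y => ?_⟩⟩
  · have hc' : c ∈ Subgroup.centralizer ({g} : Set G) := by
      simp [Subgroup.mem_centralizer_iff, hc]
    have a1 := mi ⟨c, hc'⟩ (F y) (hF y)
    have a2 := ma (fun x => F y (x * ⟨c, hc'⟩)) (F c) ⟨l y, fun x => h1 _ y⟩ (hF c)
    have a3 : (fun x => F y (x * ⟨c, hc'⟩)) + F c = F (c * y) := by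
      funext x
      simp [F, mul_assoc]
    rw [a3] at a2
    dsimp only
    linarith
  · have a1 : F g = fun _ => t := by
      funext x
      have hx : g * x = x * g := Subgroup.mem_centralizer_iff.1 x.2 g rfl
      simp [F, ← hx, h3]
    dsimp only at h
    rw [a1, hc, h0] at h
    linarith
  · have a1 := hle (F (y * a)) (F y) (l a) (hF _) (hF _) fun x => by
      have := (abs_le.1 (h1 (x * y) a)).2
      simp only [F, ← mul_assoc]
      linarith
    have a2 := hle (F y) (F (y * a)) (l a) (hF _) (hF _) fun x => by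
      have := (abs_le.1 (h1 (x * y) a)).1
      simp only [F, ← mul_assoc]
      linarith
    dsimp only
    rw [abs_le]
    constructor <;> linarith

end Vale.Agent.P184
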