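import Vale.Agent.P184.Defs

namespace Vale.Agent.P184

open Filter Topology

variable {G : Type*} [Group G]

namespace Cat

theorem quad {X : Type*} [MetricSpace X] (hX : IsCAT0 X) (y y' p p' : X) :
    dist y p ^ 2 + dist y' p' ^ 2 ≤
      dist y y' ^ 2 + dist y' p ^ 2 + dist p p' ^ 2 + dist y p' ^ 2 := by
  obtain ⟨m, hm⟩ := hX y p
  have h1 := hm y'
  have h2 := hm p'
  have h3 := dist_triangle_right y' p' m
  rw [dist_comm y' y] at h1
  rw [dist_comm p' y, dist_comm p' p] at h2
  have h4 : dist y' p' ^ 2 ≤ (dist y' m + dist p' m) ^ 2 := pow_le_pow_left₀ dist_nonneg h3 2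
  nlinarith [sq_nonneg (dist y' m - dist p' m)]

theorem quad2 {X : Type*} [MetricSpace X] (hX : IsCAT0 X) (y y' p p' : X) :
    |dist y' p' - dist y' p - dist y p' + dist y p| * dist y p ≤ (dist p p' + dist y y') ^ 2 := by
  have h1 := quad hX y y' p p'
  have h2 := quad hX y y' p' p
  rw [dist_comm p' p] at h2
  have h3 : |dist y' p' - dist y' p| ≤ dist p p' := by
    rw [dist_comm y' p', dist_comm y' p, dist_comm p p']; exact abs_dist_sub_le _ _ _
  have h4 : |dist y' p' - dist y p'| ≤ dist y y' := by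
    rw [dist_comm y y']; exact abs_dist_sub_le _ _ _
  have h5 : |dist y' p - dist y p| ≤ dist y y' := by
    rw [dist_comm y y']; exact abs_dist_sub_le _ _ _
  set a := dist y p
  set b := dist y' p'
  set c := dist y p'
  set e := dist y' p
  set D := dist p p'
  set E := dist y y'
  have ha : 0 ≤ a := dist_nonneg
  have hc : 0 ≤ c := dist_nonneg
  have h6 : |(b - e) * ((b + e) - (a + c))| ≤ D * (2 * E) := by
    rw [abs_mul]
    refine mul_le_mul h3 ?_ (abs_nonneg _) dist_nonneg
    rw [abs_le] at h4 h5 ⊢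
    constructor <;> linarith
  have h7 : |(b - e - c + a) * (a + c)| ≤ (D + E) ^ 2 := by
    rw [abs_le] at h6 ⊢
    constructor <;> nlinarith
  rw [abs_mul, abs_of_nonneg (add_nonneg ha hc)] at h7
  exact (mul_le_mul_of_nonneg_left (le_add_of_nonneg_right hc) (abs_nonneg _)).trans h7

theorem double {X : Type*} [MetricSpace X] [MulAction G X] [IsIsometricSMul G X]
    (hX : IsCAT0 X) {h : G} {s : ℝ} (hs : 0 ≤ s) (hh : ∀ x : X, s ≤ dist x (h • x)) (x : X) :
    2 * s ≤ dist x ((h * h) • x) := by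
  obtain ⟨m, hm⟩ := hX x (h • x)
  have h1 := hm (h • m)
  have h2 := hm x
  have h3 := hm (h⁻¹ • x)
  have e1 : dist (h • m) (h • x) = dist x m := by rw [dist_smul, dist_comm]
  have e2 : dist (h • m) x = dist (h⁻¹ • x) m := by
    rw [← dist_smul h (h⁻¹ • x) m, smul_inv_smul, dist_comm]
  have e3 : dist (h⁻¹ • x) x = dist x (h • x) := by
    rw [← dist_smul h (h⁻¹ • x) x, smul_inv_smul]
  have e4 : dist (h⁻¹ • x) (h • x) = dist x ((h * h) • x) := by
    rw [← dist_smul h (h⁻¹ • x) (h • x), smul_inv_smul, mul_smul]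
  rw [e1, e2, dist_comm (h • m) m] at h1
  rw [e3, e4] at h3
  rw [dist_self] at h2
  have h4 : s ^ 2 ≤ dist m (h • m) ^ 2 := pow_le_pow_left₀ hs (hh m) 2
  refine (pow_le_pow_iff_left₀ (by positivity) dist_nonneg two_ne_zero).1 ?_
  nlinarith

theorem pow_two_pow {X : Type*} [MetricSpace X] [MulAction G X] [IsIsometricSMul G X]
    (hX : IsCAT0 X) {g : G} {t : ℝ} (ht : 0 ≤ t) (hg : ∀ x : X, t ≤ dist x (g • x)) (k : ℕ) :
    ∀ x : X, 2 ^ k * t ≤ dist x (g ^ 2 ^ k • x) := by
  induction k with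
  | zero => simpa using hg
  | succ k ih =>
    intro x
    have := double hX (by positivity) ih x
    rw [← pow_add, ← two_mul, ← pow_succ'] at this
    calc 2 ^ (k + 1) * t = 2 * (2 ^ k * t) := by ring
      _ ≤ _ := this

theorem steps {a : ℕ → ℝ} {t : ℝ} (ht : 0 < t) (h0 : a 0 = 0)
    (h : ∀ k : ℕ, 2 ^ k * t ≤ a (2 ^ k)) (A : ℕ) : ∃ n, a n + t / 2 ≤ a (n + 1) ∧ A ≤ a (n + 1) := by
  by_contra hn
  push Not at hn
  have h1 : ∀ n : ℕ, a n ≤ A + t / 2 * n := by
    intro n
    induction n with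
    | zero => simp [h0]
    | succ n ih =>
      push_cast
      by_cases h2 : a n + t / 2 ≤ a (n + 1)
      · have := hn n h2
        have : 0 ≤ t / 2 * (n + 1) := by positivity
        linarith
      · linarith
  obtain ⟨k, hk⟩ := pow_unbounded_of_one_lt ((A : ℝ) / (t / 2)) (one_lt_two (α := ℝ))
  rw [div_lt_iff₀ (by positivity)] at hk
  have h2 := h1 (2 ^ k)
  have h3 := h k
  push_cast at h2
  linarith

end Cat

theorem phi_of_cat {X : Type*} [MetricSpace X] [Nonempty X] [MulAction G X] [IsIsometricSMul G X]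
    (hX : IsCAT0 X) {g : G} {t : ℝ} (ht : 0 < t) (hg : ∀ x : X, t ≤ dist x (g • x)) :
    ∃ Φ, Phi g Φ := by
  obtain ⟨x⟩ := ‹Nonempty X›
  choose n hn using Cat.steps (a := fun n => dist x (g ^ n • x)) ht (by simp)
    (fun k => Cat.pow_two_pow hX ht.le hg k x)
  let P : ℕ → X := fun j => g ^ (n j + 1) • x
  let U : Ultrafilter ℕ := hyperfilter ℕ
  have hU : (U : Filter ℕ) ≤ atTop := Nat.hyperfilter_le_atTop
  let f : G → ℕ → ℝ := fun y j => dist (y • x) (P j) - dist x (P j)
  have hex : ∀ y, ∃ r, Tendsto (f y) U (𝓝 r) := by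
    intro y
    obtain ⟨r, -, hr⟩ := (isCompact_Icc (a := -dist (y • x) x) (b := dist (y • x) x)).ultrafilter_le_nhds
      (U.map (f y)) (by
        rw [Ultrafilter.coe_map, le_principal_iff, mem_map]
        exact Eventually.of_forall fun j => abs_le.1 (abs_dist_sub_le _ _ _))
    exact ⟨r, hr⟩
  choose Φ hΦ using hex
  have h1 : Φ 1 = 0 := tendsto_nhds_unique (hΦ 1) (by simp [f])
  refine ⟨Φ, fun c hc y => ?_, ?_, fun a => ⟨dist (a • x) x, fun y => ?_⟩⟩
  · have t1 := ((hΦ (c * y)).sub (hΦ y)).sub ((hΦ c).sub (hΦ 1))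
    set K := (dist x (c⁻¹ • x) + dist x (y • x)) ^ 2
    have t2 : Tendsto (fun j : ℕ => K / (j : ℝ)) U (𝓝 0) :=
      (tendsto_const_div_atTop_nhds_zero_nat K).mono_left hU
    have t3 : Tendsto (fun j => f (c * y) j - f y j - (f c j - f 1 j)) U (𝓝 0) := by
      refine squeeze_zero_norm' ?_ t2
      filter_upwards [hU (eventually_gt_atTop 0)] with j hj
      have q := Cat.quad2 hX x (y • x) (P j) (c⁻¹ • P j)
      have e1 : dist (P j) (c⁻¹ • P j) = dist x (c⁻¹ • x) := by
        have : c⁻¹ * g ^ (n j + 1) = g ^ (n j + 1) * c⁻¹ :=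
          ((show Commute c g from hc).inv_left.pow_right _).eq
        simp only [P]
        rw [← mul_smul, this, mul_smul, dist_smul]
      have e2 : dist ((c * y) • x) (P j) = dist (y • x) (c⁻¹ • P j) := by
        rw [← dist_smul c (y • x) (c⁻¹ • P j), smul_inv_smul, mul_smul]
      have e3 : dist (c • x) (P j) = dist x (c⁻¹ • P j) := by
        rw [← dist_smul c x (c⁻¹ • P j), smul_inv_smul]
      have e4 : f (c * y) j - f y j - (f c j - f 1 j) = dist (y • x) (c⁻¹ • P j) -
          dist (y • x) (P j) - dist x (c⁻¹ • P j) + dist x (P j) := by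
        simp only [f, e2, e3, one_smul]
        ring
      rw [e1] at q
      rw [Real.norm_eq_abs, e4, le_div_iff₀ (by exact_mod_cast hj)]
      exact (mul_le_mul_of_nonneg_left (hn j).2 (abs_nonneg _)).trans q
    exact sub_eq_zero.1 (tendsto_nhds_unique t1 t3)
  · have : Φ g ≤ -(t / 2) := by
      refine le_of_tendsto' (hΦ g) fun j => ?_
      have e1 : dist (g • x) (P j) = dist x (g ^ n j • x) := by
        simp only [P]
        rw [pow_succ', mul_smul, dist_smul]
      have := (hn j).1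
      simp only [f, e1]
      simp only [P]
      linarith
    rw [h1]
    intro h
    linarith
  · refine le_of_tendsto' ((hΦ (y * a)).sub (hΦ y)).abs fun j => ?_
    have : f (y * a) j - f y j = dist ((y * a) • x) (P j) - dist (y • x) (P j) := by
      simp only [f]
      ring
    rw [this]
    refine (abs_dist_sub_le _ _ _).trans (le_of_eq ?_)
    rw [mul_smul, dist_smul]

end Vale.Agent.P184
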