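import Vale.Agent.P184.Ker

namespace Vale.Agent.P184

variable {G : Type*} [Group G]

namespace Core

open Ker Filter Topology

theorem tr_odd {R : Type*} [Ring R] (T : R →+ ℂ) (hT : ∀ a b, T (a * b) = T (b * a)) {e f : R}
    (he : e * e = e) (hf : f * f = f) (n : ℕ) : T ((e - f) ^ (2 * n + 1)) = T (e - f) := by
  induction n with
  | zero => simp
  | succ n ih =>
    have h1 : Commute ((e - f) ^ 2) e := by
      have a1 : (e - f) ^ 2 * e = e * e * e - e * f * e - f * (e * e) + f * f * e := by noncomm_ring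
      have a2 : e * (e - f) ^ 2 = e * e * e - e * e * f - e * f * e + e * (f * f) := by noncomm_ring
      rw [Commute, SemiconjBy, a1, a2, he, hf, he]
      noncomm_ring
    have h2 : Commute ((e - f) ^ 2) f := by
      have a1 : (e - f) ^ 2 * f = e * e * f - e * (f * f) - f * e * f + f * f * f := by noncomm_ring
      have a2 : f * (e - f) ^ 2 = f * (e * e) - f * e * f - f * f * e + f * f * f := by noncomm_ring
      rw [Commute, SemiconjBy, a1, a2, he, hf]
      noncomm_ring
    have h3 : (e - f) ^ 3 = (e - f) - e * f * e + f * e * f := by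
      have a1 : (e - f) ^ 3 = e * e * e - e * e * f - e * f * e + e * (f * f) - f * (e * e) +
        f * e * f + f * f * e - f * f * f := by noncomm_ring
      rw [a1, he, hf, he, hf]
      noncomm_ring
    set w := ((e - f) ^ 2) ^ n with hw
    have h4 : w * e = e * w := (h1.pow_left n).eq
    have h5 : w * f = f * w := (h2.pow_left n).eq
    have h6 : (e - f) ^ (2 * (n + 1) + 1) = w * (e - f) ^ 3 := by
      rw [hw, ← pow_mul, ← pow_add]
      rfl
    have h7 : (e - f) ^ (2 * n + 1) = w * (e - f) := by rw [hw, ← pow_mul, pow_succ]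
    have h8 : T (w * (e * f * e)) = T (w * (e * f)) := by
      rw [← mul_assoc, hT, ← mul_assoc, ← h4, mul_assoc, ← mul_assoc e e, he]
    have h9 : T (w * (f * e * f)) = T (w * (e * f)) := by
      rw [mul_assoc f, ← mul_assoc, h5, mul_assoc, hT, mul_assoc, mul_assoc, hf]
    rw [h6, h3, mul_add, mul_sub, map_add, map_sub, h8, h9, ← h7, ih]
    ring

theorem bd_sum {ι : Type*} (s : Finset ι) (k : ι → Ks G) {r : ℝ} (h : ∀ i, Bd (k i).1 r) :
    Bd (∑ i ∈ s, k i).1 (s.card * r) := by
  classical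
  induction s using Finset.induction_on with
  | empty => simpa using bd_zero
  | insert i s hi ih =>
    rw [Finset.sum_insert hi, Finset.card_insert_of_notMem hi]
    have := (h i).add ih
    rw [Nat.cast_succ, add_mul, one_mul, add_comm (s.card * r : ℝ)]
    exact this

theorem bd_pow {q : ℕ} {D : Matrix (Fin q) (Fin q) (Ks G)} {r : ℝ} (h : ∀ i j, Bd (D i j).1 r)
    (n : ℕ) (i j : Fin q) : Bd ((D ^ (n + 1)) i j).1 (r * (q * r) ^ n) := by
  induction n generalizing i j with
  | zero => simpa using h i j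
  | succ n ih =>
    rw [pow_succ, Matrix.mul_apply]
    have := bd_sum Finset.univ (fun k => (D ^ (n + 1)) i k * D k j)
      (fun k => (ih i k).cv (h k j))
    rw [Finset.card_univ, Fintype.card_fin] at this
    convert this using 1
    ring

/-- matrix trace -/
noncomputable def TM (g : G) (q : ℕ) : Matrix (Fin q) (Fin q) (Ks G) →+ ℂ :=
  AddMonoidHom.mk' (fun A => ∑ i, T g (A i i)) fun A B => by
    simp [Finset.sum_add_distrib]

theorem TM_apply (g : G) {q : ℕ} (A : Matrix (Fin q) (Fin q) (Ks G)) :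
    TM g q A = ∑ i, T g (A i i) := rfl

theorem TM_comm (g : G) {q : ℕ} (A B : Matrix (Fin q) (Fin q) (Ks G)) :
    TM g q (A * B) = TM g q (B * A) := by
  simp only [TM_apply, Matrix.mul_apply, map_sum]
  rw [Finset.sum_comm]
  exact Finset.sum_congr rfl fun i _ => Finset.sum_congr rfl fun j _ => T_comm g _ _

theorem TM_eq (g : G) {q : ℕ} {A B : Matrix (Fin q) (Fin q) (Ks G)} (hA : A * A = A)
    (hB : B * B = B) {r : ℝ} (h0 : 0 ≤ r) (hr : q * r < 1) (h : ∀ i j, Bd ((A - B) i j).1 r) :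
    TM g q A = TM g q B := by
  rw [← sub_eq_zero, ← map_sub, ← norm_le_zero_iff]
  have h1 : ∀ n : ℕ, ‖TM g q (A - B)‖ ≤ q * r * ((q * r) ^ 2) ^ n := by
    intro n
    rw [← tr_odd (TM g q) (TM_comm g) hA hB n, TM_apply]
    refine (norm_sum_le _ _).trans ?_
    refine (Finset.sum_le_sum fun i _ => tr_le g (bd_pow h (2 * n) i i)).trans ?_
    rw [Finset.sum_const, Finset.card_univ, Fintype.card_fin, nsmul_eq_mul, ← pow_mul, mul_assoc]
  have h2 : 0 ≤ (q : ℝ) * r := by positivity
  have h3 := (tendsto_pow_atTop_nhds_zero_of_lt_one (sq_nonneg ((q : ℝ) * r))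
    (by nlinarith)).const_mul (q * r)
  rw [mul_zero] at h3
  exact ge_of_tendsto' h3 h1

open Classical in
/-- the groupoid cocycle -/
noncomputable def be (g : G) (Φ : G → ℝ) (y a : G) : ℝ :=
  if h : ∃ x, x⁻¹ * g * x = y then Φ (h.choose * a) - Φ h.choose else 0

theorem be_eq {g : G} {Φ : G → ℝ} (h : Phi g Φ) {x y : G} (hx : x⁻¹ * g * x = y) (a : G) :
    be g Φ y a = Φ (x * a) - Φ x := by
  have h0 : ∃ x, x⁻¹ * g * x = y := ⟨x, hx⟩
  rw [be, dif_pos h0]
  have h1 := h0.choose_spec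
  set z := h0.choose
  have h2 : z * x⁻¹ * g = g * (z * x⁻¹) := by
    calc z * x⁻¹ * g = z * (x⁻¹ * g * x) * x⁻¹ := by group
      _ = z * (z⁻¹ * g * z) * x⁻¹ := by rw [hx, h1]
      _ = g * (z * x⁻¹) := by group
  have h3 := h.1 _ h2 (x * a)
  have h4 := h.1 _ h2 x
  rw [show z * x⁻¹ * (x * a) = z * a by group] at h3
  rw [show z * x⁻¹ * x = z by group] at h4
  linarith

theorem be_add {g : G} {Φ : G → ℝ} (h : Phi g Φ) (y a b : G) :
    be g Φ y b + be g Φ (b⁻¹ * y * b) (b⁻¹ * a) = be g Φ y a := by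
  by_cases h0 : ∃ x, x⁻¹ * g * x = y
  · obtain ⟨x, hx⟩ := h0
    have h1 : (x * b)⁻¹ * g * (x * b) = b⁻¹ * y * b := by
      rw [← hx]
      group
    rw [be_eq h hx, be_eq h hx, be_eq h h1, show x * b * (b⁻¹ * a) = x * a by group]
    ring
  · have h1 : ¬ ∃ x, x⁻¹ * g * x = b⁻¹ * y * b := by
      rintro ⟨x, hx⟩
      refine h0 ⟨x * b⁻¹, ?_⟩
      calc (x * b⁻¹)⁻¹ * g * (x * b⁻¹) = b * (x⁻¹ * g * x) * b⁻¹ := by group
        _ = y := by
          rw [hx]
          group
    simp only [be, dif_neg h0, dif_neg h1, add_zero]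

theorem be_self {g : G} {Φ : G → ℝ} (h : Phi g Φ) {y : G} (hy : IsConj g y) :
    be g Φ y y = Φ g - Φ 1 := by
  obtain ⟨c, hc⟩ := isConj_iff.1 hy
  have h1 : c⁻¹⁻¹ * g * c⁻¹ = y := by rw [inv_inv, hc]
  rw [be_eq h h1, ← h.1 g rfl c⁻¹, ← hc, show c⁻¹ * (c * g * c⁻¹) = g * c⁻¹ by group]

theorem be_le {g : G} {Φ : G → ℝ} (h : Phi g Φ) (a : G) : ∃ L, ∀ y, |be g Φ y a| ≤ L := by
  obtain ⟨L, hL⟩ := h.2.2 a
  refine ⟨L, fun y => ?_⟩
  unfold be
  split_ifs
  · exact hL _
  · simpa using (abs_nonneg _).trans (hL 1)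

theorem twist {g : G} {γ : G → G → ℝ} (h1 : ∀ y a b, γ y b + γ (b⁻¹ * y * b) (b⁻¹ * a) = γ y a)
    (h2 : ∀ y, IsConj g y → γ y y = 1) (h3 : ∀ a, ∃ L, ∀ y, |γ y a| ≤ L) : Vanish g := by
  classical
  intro q e he
  choose L hL using h3
  let P : ℝ → Matrix (Fin q) (Fin q) (Ks G) := fun s i j =>
    ⟨fun a y => e i j a * Complex.exp (Complex.I * (s * γ y a : ℝ)), _, _, he.1 i j, fun a y => by
      rw [norm_mul, Complex.norm_exp_I_mul_ofReal, mul_one], le_rfl⟩
  have hP : ∀ s, P s * P s = P s := by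
    intro s
    ext i j a y
    rw [Matrix.mul_apply, AddSubmonoidClass.coe_finsetSum, Finset.sum_apply, Finset.sum_apply]
    change _ = e i j a * _
    rw [← he.2 i j a, Finset.sum_mul]
    refine Finset.sum_congr rfl fun k _ => ?_
    rw [← tsum_mul_right]
    refine tsum_congr fun b => ?_
    change e i k b * _ * (e k j _ * _) = _
    rw [← h1 y a b, mul_add, Complex.ofReal_add, mul_add, Complex.exp_add]
    ring
  have hT : ∀ s : ℝ, TM g q (P s) = Complex.exp (Complex.I * s) * tau e (ConjClasses.mk g) := by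
    intro s
    have a1 : ∀ i, Summable fun y => if IsConj g y then e i i y else 0 := fun i =>
      tr_summable g (k := fun a _ => e i i a) ⟨_, he.1 i i, fun _ _ => le_rfl, le_rfl⟩
    rw [TM_apply, tau, tsum_subtype (ConjClasses.mk g).carrier fun y => ∑ i, e i i y]
    have a2 : ∀ y, (ConjClasses.mk g).carrier.indicator (fun y => ∑ i, e i i y) y =
        ∑ i, if IsConj g y then e i i y else 0 := by
      intro y
      have : y ∈ (ConjClasses.mk g).carrier ↔ IsConj g y := by
        rw [ConjClasses.mem_carrier_iff_mk_eq, ConjClasses.mk_eq_mk_iff_isConj, isConj_comm]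
      by_cases hy : IsConj g y
      · simp only [Set.indicator_of_mem (this.2 hy), if_pos hy]
      · simp only [Set.indicator_of_notMem (fun h => hy (this.1 h)), if_neg hy,
          Finset.sum_const_zero]
    simp only [a2]
    rw [Summable.tsum_finsetSum fun i _ => a1 i, Finset.mul_sum]
    refine Finset.sum_congr rfl fun i _ => ?_
    rw [← tsum_mul_left]
    refine tsum_congr fun y => ?_
    by_cases hy : IsConj g y
    · rw [if_pos hy, if_pos hy]
      change e i i y * _ = _
      rw [h2 y hy, mul_one, mul_comm]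
    · rw [if_neg hy, if_neg hy, mul_zero]
  have hD : ∀ i j, Tendsto (fun s : ℝ => ∑' a, ‖e i j a‖ * min 2 (|s| * L a)) (𝓝 0) (𝓝 0) := by
    intro i j
    have := tendsto_tsum_of_dominated_convergence (𝓕 := 𝓝 (0 : ℝ))
      (f := fun s a => ‖e i j a‖ * min 2 (|s| * L a)) (g := fun _ => (0 : ℝ))
      ((he.1 i j).mul_right 2) (fun a => ?_) (Eventually.of_forall fun s a => ?_)
    · simpa using this
    · have : Continuous fun s : ℝ => ‖e i j a‖ * min 2 (|s| * L a) := by fun_prop
      simpa using this.tendsto 0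
    · have h0 : 0 ≤ |s| * L a := mul_nonneg (abs_nonneg _) ((abs_nonneg _).trans (hL a 1))
      rw [Real.norm_of_nonneg (mul_nonneg (norm_nonneg _) (le_min zero_le_two h0))]
      exact mul_le_mul_of_nonneg_left (min_le_left _ _) (norm_nonneg _)
  have hq : (0 : ℝ) < 1 / (q + 1) := by positivity
  have hev : ∀ᶠ s : ℝ in 𝓝 0, ∀ i j, ∑' a, ‖e i j a‖ * min 2 (|s| * L a) ≤ 1 / (q + 1) := by
    simp only [eventually_all]
    exact fun i j => (hD i j).eventually (ge_mem_nhds hq)
  obtain ⟨s, hs1, hs2⟩ := ((hev.filter_mono nhdsWithin_le_nhds).and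
    (Ioo_mem_nhdsGT (show (0 : ℝ) < 1 from one_pos))).exists
  have hB : ∀ i j, Bd ((P s - P 0) i j).1 (1 / (q + 1)) := by
    intro i j
    refine ⟨_, ?_, fun a y => ?_, hs1 i j⟩
    · refine Summable.of_nonneg_of_le (fun a => ?_) (fun a => ?_) ((he.1 i j).mul_right 2)
      · exact mul_nonneg (norm_nonneg _) (le_min zero_le_two
          (mul_nonneg (abs_nonneg _) ((abs_nonneg _).trans (hL a 1))))
      · exact mul_le_mul_of_nonneg_left (min_le_left _ _) (norm_nonneg _)
    · change ‖e i j a * _ - e i j a * _‖ ≤ _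
      rw [← mul_sub, norm_mul, zero_mul, Complex.ofReal_zero, mul_zero, Complex.exp_zero]
      refine mul_le_mul_of_nonneg_left (le_min ?_ ?_) (norm_nonneg _)
      · refine (norm_sub_le _ _).trans ?_
        rw [Complex.norm_exp_I_mul_ofReal, norm_one]
        norm_num
      · refine Real.norm_exp_I_mul_ofReal_sub_one_le.trans ?_
        rw [Real.norm_eq_abs, abs_mul]
        exact mul_le_mul_of_nonneg_left (hL a y) (abs_nonneg _)
  have hfin := TM_eq g (hP s) (hP 0) hq.le (by
    rw [mul_one_div, div_lt_one (by positivity)]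
    linarith) hB
  rw [hT, hT, Complex.ofReal_zero, mul_zero, Complex.exp_zero] at hfin
  refine (mul_eq_mul_right_iff.1 hfin).resolve_left fun h => ?_
  have h4 := congrArg Complex.im h
  rw [mul_comm, Complex.exp_ofReal_mul_I_im, Complex.one_im] at h4
  have := Real.sin_pos_of_pos_of_lt_pi hs2.1 (by linarith [hs2.2, Real.pi_gt_three])
  linarith

end Core

theorem vanish_of_phi {g : G} {Φ : G → ℝ} (h : Phi g Φ) : Vanish g := by
  have h0 : Φ g - Φ 1 ≠ 0 := sub_ne_zero.2 h.2.1
  refine Core.twist (γ := fun y a => Core.be g Φ y a / (Φ g - Φ 1)) (fun y a b => ?_)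
    (fun y hy => ?_) fun a => ?_
  · rw [← add_div, Core.be_add h]
  · rw [Core.be_self h hy, div_self h0]
  · obtain ⟨L, hL⟩ := Core.be_le h a
    refine ⟨L / |Φ g - Φ 1|, fun y => ?_⟩
    rw [abs_div]
    exact div_le_div_of_nonneg_right (hL y) (abs_nonneg _)

end Vale.Agent.P184
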