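import Mathlib

/-! The l1-Bass conjecture: definitions. -/

namespace Vale.Agent.P184

variable {G : Type*} [Group G]

/-- `e` is an idempotent `q x q` matrix over the convolution algebra `l1(G)` -/
def Idem {q : ℕ} (e : Fin q → Fin q → G → ℂ) : Prop :=
  (∀ i j, Summable fun a => ‖e i j a‖) ∧
    ∀ i j a, ∑ k, ∑' b, e i k b * e k j (b⁻¹ * a) = e i j a

/-- Hattori-Stallings coefficient at the conjugacy class `C` -/
noncomputable def tau {q : ℕ} (e : Fin q → Fin q → G → ℂ) (C : ConjClasses G) : ℂ :=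
  ∑' h : C.carrier, ∑ i, e i i h

/-- the trace of every idempotent matrix over `l1(G)` vanishes at the class of `g` -/
def Vanish (g : G) : Prop :=
  ∀ (q : ℕ) (e : Fin q → Fin q → G → ℂ), Idem e → tau e (ConjClasses.mk g) = 0

/-- the l1-Bass conjecture for `G` -/
def Bass (G : Type*) [Group G] : Prop :=
  ∀ (q : ℕ) (e : Fin q → Fin q → G → ℂ), Idem e →
    ∃ F : Finset (ConjClasses G), (∀ C ∈ F, ∀ h ∈ C.carrier, IsOfFinOrder h) ∧
      ∀ C, C ∉ F → tau e C = 0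

/-- symmetric subadditive length function -/
def IsLength (l : G → ℝ) : Prop := (∀ a b, l (a * b) ≤ l a + l b) ∧ ∀ a, l a⁻¹ = l a

/-- `g` is undistorted for some length function on `G` -/
def Undistorted (g : G) : Prop :=
  ∃ (l : G → ℝ) (t : ℝ), IsLength l ∧ 0 < t ∧ ∀ n : ℕ, t * n ≤ l (g ^ n)

/-- bounded real function -/
def Bdd {H : Type*} (f : H → ℝ) : Prop := ∃ L, ∀ x, |f x| ≤ L

/-- existence of an invariant mean on bounded real functions -/
def Amenable (H : Type*) [Group H] : Prop :=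
  ∃ m : (H → ℝ) → ℝ, (∀ f f', Bdd f → Bdd f' → m (f + f') = m f + m f') ∧
    (∀ (c : ℝ) f, Bdd f → m (fun x => c * f x) = c * m f) ∧
    (∀ f, Bdd f → (∀ x, 0 ≤ f x) → 0 ≤ m f) ∧ m (fun _ => 1) = 1 ∧
    ∀ (h : H) f, Bdd f → m (fun x => f (x * h)) = m f

/-- midpoints exist and satisfy the CN inequality of Bruhat and Tits -/
def IsCAT0 (X : Type*) [MetricSpace X] : Prop :=
  ∀ x y : X, ∃ m : X, ∀ z : X,
    dist z m ^ 2 ≤ (dist z x ^ 2 + dist z y ^ 2) / 2 - dist x y ^ 2 / 4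

/-- height function used in the proofs -/
def Phi (g : G) (Φ : G → ℝ) : Prop :=
  (∀ c, c * g = g * c → ∀ y, Φ (c * y) - Φ y = Φ c - Φ 1) ∧ Φ g ≠ Φ 1 ∧
    ∀ a, ∃ L, ∀ y, |Φ (y * a) - Φ y| ≤ L

end Vale.Agent.P184
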