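import Vale.Agent.P184.Defs

namespace Vale.Agent.P184

open Polynomial in
theorem exists_trans_root {L : Type*} [Field L] [IsAlgClosed L] {p : ℕ} [Fact p.Prime]
    [Algebra (ZMod p) L] {n : ℕ} (A : Matrix (Fin n) (Fin n) L) (hA : IsUnit A)
    (h : ¬ IsOfFinOrder A) : ∃ μ : L, A.charpoly.IsRoot μ ∧ Transcendental (ZMod p) μ := by
  by_contra hc
  have halg : ∀ μ ∈ A.charpoly.roots, IsIntegral (ZMod p) μ := by
    intro μ hμ
    have h1 : IsAlgebraic (ZMod p) μ := by
      by_contra h2
      exact hc ⟨μ, Polynomial.isRoot_of_mem_roots hμ, h2⟩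
    exact h1.isIntegral
  set P : Polynomial (ZMod p) := (A.charpoly.roots.map (minpoly (ZMod p))).prod with hP
  have hPm : P.Monic :=
    Polynomial.monic_multiset_prod_of_monic _ _ (fun μ hμ => minpoly.monic (halg μ hμ))
  have hdvd : A.charpoly ∣ P.map (algebraMap (ZMod p) L) := by
    have hs : A.charpoly = (A.charpoly.roots.map fun a => X - C a).prod :=
      (IsAlgClosed.splits _).eq_prod_roots_of_monic (Matrix.charpoly_monic A)
    rw [hP, Polynomial.map_multiset_prod, Multiset.map_map]
    conv_lhs => rw [hs]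
    apply Multiset.prod_dvd_prod_of_dvd
    intro μ _
    rw [dvd_iff_isRoot]
    simp [IsRoot, eval_map_algebraMap, minpoly.aeval]
  have hint : IsIntegral (ZMod p) A := by
    refine ⟨P, hPm, ?_⟩
    obtain ⟨Q, hQ⟩ := hdvd
    have h3 : aeval A (P.map (algebraMap (ZMod p) L)) = 0 := by
      rw [hQ, map_mul, Matrix.aeval_self_charpoly, zero_mul]
    rwa [Polynomial.aeval_map_algebraMap] at h3
  have hfg := hint.fg_adjoin_singleton
  have hfin : Module.Finite (ZMod p) (Algebra.adjoin (ZMod p) {A}).toSubmodule :=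
    Module.Finite.iff_fg.mpr hfg
  have hF : Finite (Algebra.adjoin (ZMod p) {A}).toSubmodule :=
    Module.finite_of_finite (ZMod p)
  obtain ⟨u, rfl⟩ := hA
  have hu : ¬ IsOfFinOrder u := fun h4 => h (Units.isOfFinOrder_val.mpr h4)
  have hinj := injective_pow_iff_not_isOfFinOrder.mpr hu
  let f : ℕ → (Algebra.adjoin (ZMod p) {(u : Matrix (Fin n) (Fin n) L)}).toSubmodule :=
    fun k => ⟨(u : Matrix (Fin n) (Fin n) L) ^ k,
      Subalgebra.pow_mem _ (Algebra.self_mem_adjoin_singleton _ _) k⟩
  have hf : Function.Injective f := by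
    intro a b hab
    apply hinj
    apply Units.ext
    have := congrArg Subtype.val hab
    simpa [f] using this
  exact not_injective_infinite_finite f hf

end Vale.Agent.P184
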