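import Vale.Agent.P184.Defs

namespace Vale.Agent.P184

theorem exists_ext {E : Type} [Field E] [Countable E] [Algebra E ℂ] {M : Type} [Field M]
    [IsAlgClosed M] (hM : Cardinal.continuum ≤ Cardinal.mk M) (σ : E →+* M) :
    ∃ ψ : ℂ →+* M, ∀ x, ψ (algebraMap E ℂ x) = σ x := by
  let _i : Algebra E M := σ.toAlgebra
  obtain ⟨s, hs⟩ := exists_isTranscendenceBasis E ℂ
  obtain ⟨t, ht⟩ := exists_isTranscendenceBasis E M
  have h1 := IsAlgClosed.cardinal_eq_cardinal_transcendence_basis_of_aleph0_lt' _ ht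
    Cardinal.mk_le_aleph0 (Cardinal.aleph0_lt_continuum.trans_le hM)
  have h2 : Cardinal.mk s ≤ Cardinal.mk t :=
    (Cardinal.mk_set_le s).trans (Cardinal.mk_complex.trans_le (hM.trans_eq h1))
  obtain ⟨e⟩ := Cardinal.le_def _ _ |>.1 h2
  have h3 : AlgebraicIndependent E ((fun x : t => (x : M)) ∘ e) := ht.1.comp e e.injective
  let φ : Algebra.adjoin E (Set.range ((↑) : s → ℂ)) →ₐ[E] M :=
    (MvPolynomial.aeval ((fun x : t => (x : M)) ∘ e)).comp hs.1.aevalEquiv.symm.toAlgHom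
  have hφ : Function.Injective φ :=
    fun _ _ h => hs.1.aevalEquiv.symm.injective (algebraicIndependent_iff_injective_aeval.1 h3 h)
  let _j : Algebra (Algebra.adjoin E (Set.range ((↑) : s → ℂ))) M := φ.toRingHom.toAlgebra
  have : FaithfulSMul (Algebra.adjoin E (Set.range ((↑) : s → ℂ))) M :=
    (faithfulSMul_iff_algebraMap_injective _ _).2 hφ
  have := hs.isAlgebraic
  let ψ : ℂ →ₐ[Algebra.adjoin E (Set.range ((↑) : s → ℂ))] M := IsAlgClosed.lift
  refine ⟨ψ.toRingHom, fun x => ?_⟩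
  exact (ψ.commutes (algebraMap E _ x)).trans (φ.commutes x)

end Vale.Agent.P184
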