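import Vale.Agent.P184.Defs

/-! The ring of dominated kernels on the conjugation groupoid. -/

namespace Vale.Agent.P184.Ker

variable {G : Type*} [Group G]

/-- dominated kernel -/
def Bd (k : G → G → ℂ) (r : ℝ) : Prop :=
  ∃ f : G → ℝ, Summable f ∧ (∀ a y, ‖k a y‖ ≤ f a) ∧ ∑' a, f a ≤ r

/-- twisted convolution -/
noncomputable def cv (k l : G → G → ℂ) : G → G → ℂ :=
  fun a y => ∑' b, k b y * l (b⁻¹ * a) (b⁻¹ * y * b)

omit [Group G] in
theorem nn {k : G → G → ℂ} {f : G → ℝ} (h : ∀ a y, ‖k a y‖ ≤ f a) (a : G) : 0 ≤ f a :=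
  (norm_nonneg _).trans (h a a)

/-- shear -/
def sh (G : Type*) [Group G] : G × G ≃ G × G where
  toFun p := (p.1, p.1 * p.2)
  invFun p := (p.1, p.1⁻¹ * p.2)
  left_inv p := by simp
  right_inv p := by simp

theorem conv_summable {f f' : G → ℝ} (hf : Summable f) (hf' : Summable f') (h : ∀ a, 0 ≤ f a)
    (h' : ∀ a, 0 ≤ f' a) : Summable fun p : G × G => f p.1 * f' (p.1⁻¹ * p.2) := by
  rw [← (sh G).summable_iff]
  have := hf.mul_of_nonneg hf' h h'
  refine this.congr fun p => ?_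
  simp [sh]

theorem conv_tsum {f f' : G → ℝ} (hf : Summable f) (hf' : Summable f') (h : ∀ a, 0 ≤ f a)
    (h' : ∀ a, 0 ≤ f' a) : ∑' a, ∑' b, f b * f' (b⁻¹ * a) = (∑' a, f a) * ∑' a, f' a := by
  have h1 := conv_summable hf hf' h h'
  rw [Summable.tsum_comm (f := fun b a => f b * f' (b⁻¹ * a)) h1, ← tsum_mul_right]
  refine tsum_congr fun b => ?_
  rw [tsum_mul_left]
  congr 1
  exact (Equiv.mulLeft b⁻¹).tsum_eq f'

theorem row_summable {k l : G → G → ℂ} {r s : ℝ} (hk : Bd k r) (hl : Bd l s) (a y : G) :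
    Summable fun b => k b y * l (b⁻¹ * a) (b⁻¹ * y * b) := by
  obtain ⟨f, h1, h2, -⟩ := hk
  obtain ⟨f', h1', h2', -⟩ := hl
  have := (conv_summable h1 h1' (nn h2) (nn h2')).prod_symm.prod_factor a
  refine Summable.of_norm_bounded this fun b => ?_
  rw [norm_mul]
  exact mul_le_mul (h2 _ _) (h2' _ _) (norm_nonneg _) (nn h2 _)

theorem Bd.cv {k l : G → G → ℂ} {r s : ℝ} (hk : Bd k r) (hl : Bd l s) : Bd (cv k l) (r * s) := by
  obtain ⟨f, h1, h2, h3⟩ := hk
  obtain ⟨f', h1', h2', h3'⟩ := hl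
  have hs := (conv_summable h1 h1' (nn h2) (nn h2')).prod_symm
  refine ⟨fun a => ∑' b, f b * f' (b⁻¹ * a), hs.prod, fun a y => ?_, ?_⟩
  · refine tsum_of_norm_bounded (hs.prod_factor a).hasSum fun b => ?_
    rw [norm_mul]
    exact mul_le_mul (h2 _ _) (h2' _ _) (norm_nonneg _) (nn h2 _)
  · rw [conv_tsum h1 h1' (nn h2) (nn h2')]
    exact mul_le_mul h3 h3' (tsum_nonneg (nn h2')) ((tsum_nonneg (nn h2)).trans h3)

omit [Group G] in
theorem Bd.add {k l : G → G → ℂ} {r s : ℝ} (hk : Bd k r) (hl : Bd l s) : Bd (k + l) (r + s) := by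
  obtain ⟨f, h1, h2, h3⟩ := hk
  obtain ⟨f', h1', h2', h3'⟩ := hl
  refine ⟨fun a => f a + f' a, h1.add h1', fun a y => ?_, ?_⟩
  · exact (norm_add_le _ _).trans (add_le_add (h2 _ _) (h2' _ _))
  · rw [h1.tsum_add h1']
    exact add_le_add h3 h3'

omit [Group G] in
theorem Bd.neg {k : G → G → ℂ} {r : ℝ} (hk : Bd k r) : Bd (-k) r := by
  obtain ⟨f, h1, h2, h3⟩ := hk
  exact ⟨f, h1, fun a y => by simpa using h2 a y, h3⟩

omit [Group G] in
theorem bd_zero : Bd (0 : G → G → ℂ) 0 :=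
  ⟨fun _ => 0, summable_zero, fun _ _ => by simp, by simp⟩

open Classical in
/-- unit kernel -/
noncomputable def un : G → G → ℂ := fun a _ => if a = 1 then 1 else 0

theorem bd_un : Bd (un : G → G → ℂ) 1 := by
  classical
  refine ⟨fun a => if a = 1 then 1 else 0, (hasSum_ite_eq 1 1).summable, fun a y => ?_, ?_⟩
  · by_cases h : a = 1 <;> simp [un, h]
  · rw [tsum_ite_eq]

theorem cv_assoc {k l m : G → G → ℂ} {r s t : ℝ} (hk : Bd k r) (hl : Bd l s) (hm : Bd m t) :
    cv (cv k l) m = cv k (cv l m) := by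
  funext a y
  obtain ⟨f, h1, h2, -⟩ := hk
  obtain ⟨f', h1', h2', -⟩ := hl
  obtain ⟨f'', h1'', h2'', -⟩ := hm
  have hs : Summable (Function.uncurry fun b c : G =>
      k b y * l (b⁻¹ * c) (b⁻¹ * y * b) * m (c⁻¹ * a) (c⁻¹ * y * c)) := by
    refine Summable.of_norm_bounded
      ((conv_summable h1 h1' (nn h2) (nn h2')).mul_right (∑' a, f'' a)) fun p => ?_
    simp only [Function.uncurry, norm_mul]
    refine mul_le_mul (mul_le_mul (h2 _ _) (h2' _ _) (norm_nonneg _) (nn h2 _))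
      ((h2'' _ _).trans (h1''.le_tsum _ fun j _ => nn h2'' j)) (norm_nonneg _)
      (mul_nonneg (nn h2 _) (nn h2' _))
  simp only [cv]
  simp_rw [← tsum_mul_right]
  rw [hs.tsum_comm]
  refine tsum_congr fun b => ?_
  rw [← tsum_mul_left, ← (Equiv.mulLeft b).tsum_eq]
  refine tsum_congr fun d => ?_
  simp only [Equiv.coe_mulLeft, inv_mul_cancel_left, mul_inv_rev, mul_assoc]

/-- the additive group of dominated kernels -/
def Ks (G : Type*) [Group G] : AddSubgroup (G → G → ℂ) where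
  carrier := {k | ∃ r, Bd k r}
  add_mem' := fun ⟨_, h⟩ ⟨_, h'⟩ => ⟨_, h.add h'⟩
  zero_mem' := ⟨_, bd_zero⟩
  neg_mem' := fun ⟨_, h⟩ => ⟨_, h.neg⟩

noncomputable instance : Ring (Ks G) :=
  { (inferInstance : AddCommGroup (Ks G)) with
    mul := fun k l => ⟨cv k.1 l.1, by
      obtain ⟨_, h⟩ := k.2
      obtain ⟨_, h'⟩ := l.2
      exact ⟨_, h.cv h'⟩⟩
    one := ⟨un, _, bd_un⟩
    left_distrib := fun k l m => Subtype.ext <| by
      obtain ⟨_, h⟩ := k.2
      obtain ⟨_, h'⟩ := l.2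
      obtain ⟨_, h''⟩ := m.2
      funext a y
      change cv k.1 (l.1 + m.1) a y = cv k.1 l.1 a y + cv k.1 m.1 a y
      simp only [cv, Pi.add_apply, mul_add]
      exact (row_summable h h' a y).tsum_add (row_summable h h'' a y)
    right_distrib := fun k l m => Subtype.ext <| by
      obtain ⟨_, h⟩ := k.2
      obtain ⟨_, h'⟩ := l.2
      obtain ⟨_, h''⟩ := m.2
      funext a y
      change cv (k.1 + l.1) m.1 a y = cv k.1 m.1 a y + cv l.1 m.1 a y
      simp only [cv, Pi.add_apply, add_mul]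
      exact (row_summable h h'' a y).tsum_add (row_summable h' h'' a y)
    zero_mul := fun k => Subtype.ext <| by
      funext a y
      change cv 0 k.1 a y = 0
      simp [cv]
    mul_zero := fun k => Subtype.ext <| by
      funext a y
      change cv k.1 0 a y = 0
      simp [cv]
    mul_assoc := fun k l m => Subtype.ext <| by
      obtain ⟨_, h⟩ := k.2
      obtain ⟨_, h'⟩ := l.2
      obtain ⟨_, h''⟩ := m.2
      exact cv_assoc h h' h''
    one_mul := fun k => Subtype.ext <| by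
      funext a y
      change cv un k.1 a y = k.1 a y
      rw [cv, tsum_eq_single 1]
      · simp [un]
      · intro b hb
        simp [un, hb]
    mul_one := fun k => Subtype.ext <| by
      funext a y
      change cv k.1 un a y = k.1 a y
      rw [cv, tsum_eq_single a]
      · simp [un]
      · intro b hb
        have : b⁻¹ * a ≠ 1 := fun h => hb (inv_mul_eq_one.1 h)
        simp [un, this] }

theorem coe_mul (k l : Ks G) : (k * l).1 = cv k.1 l.1 := rfl

open Classical in
/-- trace at the class of `g` -/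
noncomputable def tr (g : G) (k : G → G → ℂ) : ℂ := ∑' y, if IsConj g y then k y y else 0

open Classical in
theorem tr_summable (g : G) {k : G → G → ℂ} {r : ℝ} (hk : Bd k r) :
    Summable fun y => if IsConj g y then k y y else 0 := by
  obtain ⟨f, h1, h2, -⟩ := hk
  refine Summable.of_norm_bounded h1 fun y => ?_
  split_ifs
  · exact h2 _ _
  · simpa using nn h2 y

theorem tr_le (g : G) {k : G → G → ℂ} {r : ℝ} (hk : Bd k r) : ‖tr g k‖ ≤ r := by
  obtain ⟨f, h1, h2, h3⟩ := hk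
  refine (tsum_of_norm_bounded h1.hasSum fun y => ?_).trans h3
  split_ifs
  · exact h2 _ _
  · simpa using nn h2 y

/-- the trace as an additive map -/
noncomputable def T (g : G) : Ks G →+ ℂ :=
  AddMonoidHom.mk' (fun k => tr g k.1) fun k l => by
    obtain ⟨_, h⟩ := k.2
    obtain ⟨_, h'⟩ := l.2
    simp only [tr]
    rw [← (tr_summable g h).tsum_add (tr_summable g h')]
    refine tsum_congr fun y => ?_
    split_ifs <;> simp

open Classical in
theorem tr_cv (g : G) {k l : G → G → ℂ} {r s : ℝ} (hk : Bd k r) (hl : Bd l s) :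
    tr g (cv k l) = ∑' p : G × G,
      if IsConj g (p.1 * p.2) then k p.1 (p.1 * p.2) * l p.2 (p.2 * p.1) else 0 := by
  obtain ⟨f, h1, h2, -⟩ := hk
  obtain ⟨f', h1', h2', -⟩ := hl
  have hs : Summable (Function.uncurry fun b y : G =>
      if IsConj g y then k b y * l (b⁻¹ * y) (b⁻¹ * y * b) else 0) := by
    refine Summable.of_norm_bounded (conv_summable h1 h1' (nn h2) (nn h2')) fun p => ?_
    simp only [Function.uncurry]
    split_ifs
    · rw [norm_mul]
      exact mul_le_mul (h2 _ _) (h2' _ _) (norm_nonneg _) (nn h2 _)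
    · simpa using mul_nonneg (nn h2 _) (nn h2' _)
  have e1 : tr g (cv k l) = ∑' y, ∑' b,
      if IsConj g y then k b y * l (b⁻¹ * y) (b⁻¹ * y * b) else 0 := by
    refine tsum_congr fun y => ?_
    split_ifs
    · rfl
    · simp
  rw [e1, hs.tsum_comm, ← hs.tsum_prod_uncurry hs.prod_factor, ← (sh G).tsum_eq]
  refine tsum_congr fun p => ?_
  simp [sh, Function.uncurry]

theorem T_comm (g : G) (k l : Ks G) : T g (k * l) = T g (l * k) := by
  obtain ⟨_, h⟩ := k.2
  obtain ⟨_, h'⟩ := l.2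
  change tr g (cv k.1 l.1) = tr g (cv l.1 k.1)
  rw [tr_cv g h h', tr_cv g h' h, ← (Equiv.prodComm G G).tsum_eq]
  refine tsum_congr fun p => ?_
  have h1 : IsConj (p.2 * p.1) (p.1 * p.2) := isConj_iff.2 ⟨p.1, by group⟩
  by_cases h2 : IsConj g (p.1 * p.2)
  · rw [if_pos h2]
    exact (if_pos (h2.trans h1.symm)).trans (mul_comm _ _)
  · rw [if_neg h2]
    exact if_neg fun h => h2 (IsConj.trans h h1)

end Vale.Agent.P184.Ker
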