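import Vale.Agent.P184.Defs

namespace Vale.Agent.P184

variable {G : Type*} [Group G]

namespace Lin

variable {K : Type*} [Field K] (v : AbsoluteValue K ℝ) {n d : ℕ}

/-- sum of the sizes of the maximal minors -/
noncomputable def N (B : Matrix (Fin d) (Fin n) K) : ℝ :=
  ∑ s : Fin d → Fin n, v (B.submatrix id s).det

theorem N_nonneg (B : Matrix (Fin d) (Fin n) K) : 0 ≤ N v B :=
  Finset.sum_nonneg fun _ _ => v.nonneg _

theorem det_expand (B : Matrix (Fin d) (Fin n) K) (A : Matrix (Fin n) (Fin d) K) :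
    (B * A).det = ∑ p : Fin d → Fin n, (B.submatrix id p).det * ∏ i, A (p i) i := by
  simp only [Matrix.det_apply', Matrix.mul_apply, Finset.prod_univ_sum, Finset.mul_sum,
    Fintype.piFinset_univ, Matrix.submatrix_apply, id, Finset.sum_mul]
  rw [Finset.sum_comm]
  refine Finset.sum_congr rfl fun p _ => Finset.sum_congr rfl fun σ _ => ?_
  rw [Finset.prod_mul_distrib, mul_assoc]

theorem det_le (A : Matrix (Fin n) (Fin d) K) :
    ∃ C : ℝ, 0 ≤ C ∧ ∀ B : Matrix (Fin d) (Fin n) K, v (B * A).det ≤ C * N v B := by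
  refine ⟨∑ p : Fin d → Fin n, v (∏ i, A (p i) i), Finset.sum_nonneg fun _ _ => v.nonneg _,
    fun B => ?_⟩
  rw [det_expand, N, Finset.mul_sum]
  refine (v.sum_le _ _).trans (Finset.sum_le_sum fun p _ => ?_)
  rw [v.map_mul, mul_comm]
  refine mul_le_mul_of_nonneg_right ?_ (v.nonneg _)
  exact Finset.single_le_sum (f := fun p : Fin d → Fin n => v (∏ i, A (p i) i))
    (fun _ _ => v.nonneg _) (Finset.mem_univ p)

theorem N_mul_le (A : Matrix (Fin n) (Fin n) K) :
    ∃ C : ℝ, 0 < C ∧ ∀ B : Matrix (Fin d) (Fin n) K, N v (B * A) ≤ C * N v B := by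
  choose C hC0 hC using fun s : Fin d → Fin n => det_le v (A.submatrix id s)
  refine ⟨∑ s, C s + 1, by have := Finset.sum_nonneg fun s (_ : s ∈ Finset.univ) => hC0 s; linarith,
    fun B => ?_⟩
  have h1 : N v (B * A) ≤ (∑ s, C s) * N v B := by
    rw [Finset.sum_mul]
    conv_lhs => rw [N]
    refine Finset.sum_le_sum fun s _ => ?_
    have : (B * A).submatrix id s = B * A.submatrix id s := by
      ext i j
      simp [Matrix.mul_apply]
    rw [this]
    exact hC s B
  have := N_nonneg v B
  nlinarith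

theorem N_left (M : Matrix (Fin d) (Fin d) K) (B : Matrix (Fin d) (Fin n) K) :
    N v (M * B) = v M.det * N v B := by
  rw [N, N, Finset.mul_sum]
  refine Finset.sum_congr rfl fun s _ => ?_
  have : (M * B).submatrix id s = M * B.submatrix id s := by
    ext i j
    simp [Matrix.mul_apply]
  rw [this, Matrix.det_mul, v.map_mul]

theorem exists_basis (A : Matrix (Fin n) (Fin n) K) (hA : A.det = 0) :
    ∃ (d : ℕ) (B : Matrix (Fin d) (Fin n) K) (R : Matrix (Fin n) (Fin d) K), 0 < d ∧ B * R = 1 ∧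
      B * A = 0 ∧ ∀ X : Matrix (Fin d) (Fin n) K, X * A = 0 →
        ∃ M : Matrix (Fin d) (Fin d) K, X = M * B := by
  let W : Submodule K (Fin n → K) := LinearMap.ker A.vecMulLinear
  let b := Module.finBasis K W
  obtain ⟨π, hπ⟩ := LinearMap.exists_leftInverse_of_injective W.subtype W.ker_subtype
  have hπ' : ∀ w : W, π w = w := fun w => LinearMap.congr_fun hπ w
  let f : (Fin n → K) →ₗ[K] (Fin (Module.finrank K W) → K) := b.equivFun.toLinearMap ∘ₗ π
  refine ⟨Module.finrank K W, Matrix.of fun i => (b i : Fin n → K),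
    (LinearMap.toMatrix' f).transpose, ?_, ?_, ?_, ?_⟩
  · obtain ⟨w, hw0, hw⟩ := Matrix.exists_vecMul_eq_zero_iff.mpr hA
    have : Nontrivial W := ⟨⟨⟨w, hw⟩, 0, fun h => hw0 (congrArg Subtype.val h)⟩⟩
    exact Module.finrank_pos
  · ext i j
    have h1 : f (b i) j = (1 : Matrix _ _ K) i j := by
      simp only [f, LinearMap.comp_apply, hπ', LinearEquiv.coe_coe, Module.Basis.equivFun_apply,
        Module.Basis.repr_self, Matrix.one_apply, Finsupp.single_apply]
    rw [← h1, ← Matrix.toLin'_toMatrix' f, Matrix.toLin'_apply]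
    simp [Matrix.mul_apply, Matrix.mulVec, dotProduct, mul_comm]
  · ext i j
    have h1 : Matrix.vecMul (b i : Fin n → K) A = 0 := (b i).2
    have := congrFun h1 j
    simpa [Matrix.mul_apply, Matrix.vecMul, dotProduct] using this
  · intro X hX
    have hm : ∀ i, X i ∈ W := by
      intro i
      show Matrix.vecMul (X i) A = 0
      ext j
      have := congrFun (congrFun hX i) j
      simpa [Matrix.mul_apply, Matrix.vecMul, dotProduct] using this
    refine ⟨Matrix.of fun i k => b.repr ⟨X i, hm i⟩ k, ?_⟩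
    ext i j
    have h1 := congrFun (congrArg Subtype.val (b.sum_repr ⟨X i, hm i⟩)) j
    simp only [Submodule.coe_sum, Submodule.coe_smul, Finset.sum_apply, Pi.smul_apply,
      smul_eq_mul] at h1
    simp [Matrix.mul_apply, h1]

end Lin

open Lin in
theorem phi_of_lin {K : Type*} [Field K] (v : AbsoluteValue K ℝ) {n : ℕ}
    (ρ : G →* Matrix (Fin n) (Fin n) K) {g : G} {μ : K} (hμ : (ρ g).charpoly.IsRoot μ)
    (hv : v μ ≠ 1) : ∃ Φ, Phi g Φ := by
  have hdet : (Matrix.scalar (Fin n) μ - ρ g).det = 0 := by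
    rw [← Matrix.eval_charpoly]; exact hμ
  obtain ⟨d, B, R, hd, hBR, hBA, hB⟩ := exists_basis _ hdet
  have hN : 0 < N v B := by
    obtain ⟨C, _, hC⟩ := det_le v R
    have h1 := hC B
    rw [hBR, Matrix.det_one, v.map_one] at h1
    rcases (N_nonneg v B).lt_or_eq with h | h
    · exact h
    · rw [← h] at h1; linarith
  have hpos : ∀ y, 0 < N v (B * ρ y) := by
    intro y
    obtain ⟨C, hC0, hC⟩ := N_mul_le (d := d) v (ρ y⁻¹)
    have h1 := hC (B * ρ y)
    rw [Matrix.mul_assoc, ← map_mul, mul_inv_cancel, map_one, Matrix.mul_one] at h1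
    exact (mul_pos_iff_of_pos_left hC0).mp (hN.trans_le h1)
  have hleft : ∀ c (M : Matrix (Fin d) (Fin d) K), B * ρ c = M * B → ∀ y,
      Real.log (N v (B * ρ (c * y))) = Real.log (v M.det) + Real.log (N v (B * ρ y)) := by
    intro c M hM y
    have h1 : N v (B * ρ (c * y)) = v M.det * N v (B * ρ y) := by
      rw [map_mul, ← Matrix.mul_assoc, hM, Matrix.mul_assoc, N_left]
    have h2 : v M.det ≠ 0 := by
      intro h0
      have := hpos (c * y)
      rw [h1, h0, zero_mul] at this
      exact lt_irrefl _ this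
    rw [h1, Real.log_mul h2 (hpos y).ne']
  refine ⟨fun y => Real.log (N v (B * ρ y)), ?_, ?_, ?_⟩
  · intro c hc y
    have h1 : B * ρ c * (Matrix.scalar (Fin n) μ - ρ g) = 0 := by
      have h2 : ρ c * (Matrix.scalar (Fin n) μ - ρ g) = (Matrix.scalar (Fin n) μ - ρ g) * ρ c := by
        rw [mul_sub, sub_mul, ← map_mul, ← map_mul, hc,
          (Matrix.scalar_commute μ (fun _ => Commute.all _ _) (ρ c)).eq]
      rw [Matrix.mul_assoc, h2, ← Matrix.mul_assoc, hBA, Matrix.zero_mul]
    obtain ⟨M, hM⟩ := hB _ h1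
    have h3 := hleft c M hM y
    have h4 := hleft c M hM 1
    rw [mul_one] at h4
    show Real.log _ - Real.log _ = Real.log _ - Real.log _
    linarith
  · have h1 : B * ρ g = Matrix.scalar (Fin d) μ * B := by
      rw [Matrix.mul_sub, sub_eq_zero] at hBA
      rw [← hBA]
      ext i j
      simp [Matrix.scalar_apply, mul_comm]
    have h4 := hleft g _ h1 1
    rw [mul_one] at h4
    have h5 : v (Matrix.scalar (Fin d) μ).det = v μ ^ d := by
      simp [Matrix.scalar_apply]
    have h6 : v μ ^ d ≠ 0 := by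
      intro h0
      have := hpos g
      rw [h1, N_left, h5, h0, zero_mul] at this
      exact lt_irrefl _ this
    have h7 : 0 < v μ := lt_of_le_of_ne (v.nonneg _) fun h => h6 (by rw [← h, zero_pow hd.ne'])
    intro h8
    have h9 : Real.log (v μ ^ d) = 0 := by
      rw [← h5]
      have h10 : Real.log (N v (B * ρ g)) = Real.log (N v (B * ρ 1)) := h8
      linarith
    rw [Real.log_pow] at h9
    rcases mul_eq_zero.mp h9 with h | h
    · exact hd.ne' (by exact_mod_cast h)
    · exact hv (Real.eq_one_of_pos_of_log_eq_zero h7 h)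
  · intro a
    obtain ⟨C, hC0, hC⟩ := N_mul_le (d := d) v (ρ a)
    obtain ⟨C', hC0', hC'⟩ := N_mul_le (d := d) v (ρ a⁻¹)
    refine ⟨|Real.log C| + |Real.log C'|, fun y => ?_⟩
    have h1 := hC (B * ρ y)
    rw [Matrix.mul_assoc, ← map_mul] at h1
    have h2 := hC' (B * ρ (y * a))
    rw [Matrix.mul_assoc, ← map_mul, mul_inv_cancel_right] at h2
    have h3 := Real.log_le_log (hpos _) h1
    have h4 := Real.log_le_log (hpos _) h2
    rw [Real.log_mul hC0.ne' (hpos _).ne'] at h3
    rw [Real.log_mul hC0'.ne' (hpos _).ne'] at h4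
    have := le_abs_self (Real.log C)
    have := le_abs_self (Real.log C')
    have := abs_nonneg (Real.log C)
    have := abs_nonneg (Real.log C')
    show |Real.log _ - Real.log _| ≤ _
    rw [abs_le]
    constructor <;> linarith

end Vale.Agent.P184
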