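import Vale.Agent.P184.Core
import Vale.Agent.P184.Amen
import Vale.Agent.P184.Cat
import Vale.Agent.P184.Lin
import Vale.Agent.P184.Eig
import Vale.Agent.P184.AbvC

namespace Vale.Agent.P184

universe u v

variable {G : Type u} [Group G]

/-- the centralizer of `g` -/
def Cen (g : G) : Subgroup G := Subgroup.centralizer {g}

/-- a real homomorphism on the centralizer, nonzero at `g`, dominated by a length function -/
def TameHom (g : G) : Prop :=
  ∃ (l : G → ℝ) (φ : Cen g →* Multiplicative ℝ), IsLength l ∧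
    (∀ c, |(φ c).toAdd| ≤ l c) ∧ ∃ c : Cen g, (c : G) = g ∧ φ c ≠ 1

/-- positive translation length on a CAT(0) space -/
def TameCat (g : G) : Prop :=
  ∃ (X : Type v) (_ : MetricSpace X) (_ : MulAction G X), IsIsometricSMul G X ∧ Nonempty X ∧
    IsCAT0 X ∧ ∃ t : ℝ, 0 < t ∧ ∀ x : X, t ≤ dist x (g • x)

/-- an eigenvalue that is not a root of unity in a complex representation -/
def TameC (g : G) : Prop :=
  ∃ (n : ℕ) (ρ : G →* Matrix (Fin n) (Fin n) ℂ) (μ : ℂ),
    (ρ g).charpoly.IsRoot μ ∧ ¬ IsOfFinOrder μ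

/-- infinite order in a representation in positive characteristic -/
def TameP (g : G) : Prop :=
  ∃ (K : Type v) (_ : Field K) (p : ℕ), p.Prime ∧ CharP K p ∧
    ∃ (n : ℕ) (ρ : G →* Matrix (Fin n) (Fin n) K), ¬ IsOfFinOrder (ρ g)

/-- five sufficient conditions on a group element -/
def Tame (g : G) : Prop :=
  TameHom g ∨ (Undistorted g ∧ Amenable (Cen g)) ∨ TameCat.{u, v} g ∨ TameC g ∨ TameP.{u, v} g

/-- finitely many conjugacy classes of elements of finite order -/
def FinTors (G : Type u) [Group G] : Prop :=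
  {C : ConjClasses G | ∃ x ∈ C.carrier, IsOfFinOrder x}.Finite

/-- linear over a field of positive characteristic -/
def LinearP (G : Type u) [Group G] : Prop :=
  ∃ (K : Type v) (_ : Field K) (p : ℕ), p.Prime ∧ CharP K p ∧
    ∃ (n : ℕ) (ρ : G →* Matrix (Fin n) (Fin n) K), Function.Injective ρ

theorem phi_of_charP {K : Type v} [Field K] {p : ℕ} (hp : p.Prime) [CharP K p] {n : ℕ}
    (ρ : G →* Matrix (Fin n) (Fin n) K) {g : G} (h : ¬ IsOfFinOrder (ρ g)) : ∃ Φ, Phi g Φ := by
  have : Fact p.Prime := ⟨hp⟩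
  let L := AlgebraicClosure K
  let _ : Algebra (ZMod p) L := ZMod.algebra L p
  let f : Matrix (Fin n) (Fin n) K →+* Matrix (Fin n) (Fin n) L := (algebraMap K L).mapMatrix
  have hf : Function.Injective f := fun A B hAB => by
    ext i j
    exact (algebraMap K L).injective (congrFun (congrFun hAB i) j)
  let ρ' : G →* Matrix (Fin n) (Fin n) L := f.toMonoidHom.comp ρ
  have h' : ¬ IsOfFinOrder (ρ' g) := fun h1 =>
    h ((Function.Injective.isOfFinOrder_iff (f := f.toMonoidHom) hf).1 h1)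
  obtain ⟨μ, h1, h2⟩ := exists_trans_root (p := p) (ρ' g) ((Group.isUnit g).map ρ') h'
  obtain ⟨v, hv⟩ := exists_abv h2
  exact phi_of_lin v ρ' h1 hv

theorem vanish_of_tame {g : G} (h : Tame.{u, v} g) : Vanish g := by
  suffices ∃ Φ, Phi g Φ from this.elim fun _ h => vanish_of_phi h
  rcases h with ⟨l, φ, h1, h2, c, hc, h3⟩ | ⟨h1, h2⟩ | ⟨X, _, _, _, _, h1, t, h2, h3⟩ |
    ⟨n, ρ, μ, h1, h2⟩ | ⟨K, _, p, hp, _, n, ρ, h1⟩
  · refine phi_of_hom h1 (fun c => (φ c).toAdd)
      (fun c d => congrArg Multiplicative.toAdd (φ.map_mul c d)) h2 fun h4 => h3 ?_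
    have h5 : c = ⟨g, by simp [Cen, Subgroup.mem_centralizer_iff]⟩ := Subtype.ext hc
    rw [h5]
    exact h4
  · exact phi_of_amenable h1 h2
  · exact phi_of_cat h1 h2 h3
  · obtain ⟨v, hv⟩ := exists_abv_complex h2
    exact phi_of_lin v ρ h1 hv
  · exact phi_of_charP hp ρ h1

theorem bass_of (h : ∀ g : G, ¬ IsOfFinOrder g → Vanish g)
    (hf : FinTors G) : Bass G := by
  unfold FinTors at hf
  intro q e he
  refine ⟨hf.toFinset, fun C hC y hy => ?_, fun C hC => ?_⟩
  · obtain ⟨x, hx, h1⟩ := hf.mem_toFinset.1 hC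
    rw [ConjClasses.mem_carrier_iff_mk_eq] at hx hy
    exact (ConjClasses.mk_eq_mk_iff_isConj.1 (hx.trans hy.symm)).isOfFinOrder h1
  · obtain ⟨g, rfl⟩ := ConjClasses.mk_surjective C
    exact h g (fun h1 => hC (hf.mem_toFinset.2 ⟨g, ConjClasses.mem_carrier_mk, h1⟩)) q e he

end Vale.Agent.P184
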